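import Vale.Agent.P032.S5.H450.Node
import Vale.Agent.P032.S5.H80.Rh

/-!
# P032: RULE 2 for two-pair points, no bound for the orders

`rule2_any`: if `z = {ab|cd}` and the circle of `z` has a point with the palette `{c, d, f}`, then at
most two points of the circle have the palette `{a, b, e}`.  No bound for the number of colours of
the corners `x + q - z` (nor of any other point) is used.
-/

set_option autoImplicit false

open Set Filter Topology Metric

noncomputable section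

namespace Vale.Agent.P032.R2.H231

open Vale.Agent.P032.Six Vale.Agent.P032.S5.H450

variable {U : Fin 6 → Set ℂ} {T : ℂ → Set (Fin 6)} {z q x₁ x₂ x₃ : ℂ} {a b c d e f : Fin 6}

theorem compl_abe (C : Cfg T z x₁ q a b c d e f) : ({c, d, f} : Set (Fin 6)) = ({a, b, e})ᶜ := by
  ext i
  simp only [mem_insert_iff, mem_singleton_iff, mem_compl_iff, not_or]
  constructor
  · rintro (rfl | rfl | rfl)
    · exact ⟨C.dp.ac.symm, C.dp.bc.symm, C.ec.symm⟩
    · exact ⟨C.dp.ad.symm, C.dp.bd.symm, C.ed.symm⟩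
    · exact ⟨C.fa, C.fb, C.ef.symm⟩
  · rintro ⟨h1, h2, h3⟩
    rcases C.cover i with h4 | h4 | h4 | h4 | h4 | h4
    · exact absurd h4 h1
    · exact absurd h4 h2
    · exact Or.inl h4
    · exact Or.inr (Or.inl h4)
    · exact absurd h4 h3
    · exact Or.inr (Or.inr h4)

/-- the node of a configuration, seen from the second point -/
theorem node (h : Irr U T) (C : Cfg T z x₁ q a b c d e f) : Nd T {c, d, f} z q x₁ where
  hX := Set.ncard_eq_three.2 ⟨c, d, f, C.dp.cd, C.fc.symm, C.fd.symm, rfl⟩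
  dv := by rw [dist_comm]; exact C.hQ
  dq := by rw [dist_comm]; exact C.hV
  Tv := C.TQ
  Tq := by rw [compl_abe C, compl_compl]; exact C.TV
  op := fun h0 => C.anti h (by linear_combination h0)

/-- the corners over `q` of two different points `{a, b, e}`: one of them is not the reflection
of the other -/
theorem corners (h : Irr U T) (C₁ : Cfg T z x₁ q a b c d e f) (C₂ : Cfg T z x₂ q a b c d e f)
    (hne : x₁ ≠ x₂) (hv : {c, d, f} ⊆ T (q + x₁ - z)) :
    q + x₂ - z + (q + x₁ - z) = 2 * q := by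
  have N₁ := node h C₁
  have N₂ := node h C₂
  have hf2 : f ∈ T (q + x₂ - z) := by
    have := C₂.swap.e_mem h
    exact this
  rcases N₁.heavy_line h (r := f) (by simp) C₁.hf (p := q + x₁ - z) (p' := q + x₂ - z)
      N₁.other.dv N₁.ne_other hv N₂.other.dv hf2 with h1 | h1
  · exact absurd (by linear_combination -h1) hne
  · exact h1

/-- **RULE 2**, no bound for the orders -/
theorem rule2_any (h : Irr U T) (hz : DPt T z a b c d)
    (nd : [a, b, c, d, e, f].Nodup) (hq : dist q z = 1) (hTq : T q = {c, d, f})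
    (d1 : dist x₁ z = 1) (c1 : T x₁ = {a, b, e}) (d2 : dist x₂ z = 1) (c2 : T x₂ = {a, b, e})
    (d3 : dist x₃ z = 1) (c3 : T x₃ = {a, b, e}) (n12 : x₁ ≠ x₂) (n13 : x₁ ≠ x₃) (n23 : x₂ ≠ x₃) :
    False := by
  simp only [List.nodup_cons, List.mem_cons, List.not_mem_nil, or_false, not_or,
    List.nodup_nil, and_true] at nd
  obtain ⟨⟨ab, ac, ad, ae, af⟩, ⟨bc, bd, be, bf⟩, ⟨cd, ce, cf⟩, ⟨de, df⟩, ef, -⟩ := nd
  have he : e ∉ T z := by rw [hz.pal]; simp [Ne.symm ae, Ne.symm be, Ne.symm ce, Ne.symm de]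
  have hf : f ∉ T z := by rw [hz.pal]; simp [Ne.symm af, Ne.symm bf, Ne.symm cf, Ne.symm df]
  have C : ∀ x, dist x z = 1 → T x = {a, b, e} → Cfg T z x q a b c d e f := fun x hx hTx =>
    ⟨hz, hx, hq, hTx, hTq, he, hf, ef⟩
  have C₁ := C _ d1 c1
  have C₂ := C _ d2 c2
  have C₃ := C _ d3 c3
  -- a heavy corner: all others are its reflection
  by_cases H1 : ({c, d, f} : Set (Fin 6)) ⊆ T (q + x₁ - z)
  · have k2 := corners h C₁ C₂ n12 H1
    have k3 := corners h C₁ C₃ n13 H1
    exact n23 (by linear_combination k2 - k3)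
  by_cases H2 : ({c, d, f} : Set (Fin 6)) ⊆ T (q + x₂ - z)
  · have k1 := corners h C₂ C₁ n12.symm H2
    have k3 := corners h C₂ C₃ n23 H2
    exact n13 (by linear_combination k1 - k3)
  by_cases H3 : ({c, d, f} : Set (Fin 6)) ⊆ T (q + x₃ - z)
  · have k1 := corners h C₃ C₁ n13.symm H3
    have k2 := corners h C₃ C₂ n23.symm H3
    exact n12 (by linear_combination k1 - k2)
  -- light corners: one for every missing colour
  have miss : ∀ x, Cfg T z x q a b c d e f → ¬ ({c, d, f} : Set (Fin 6)) ⊆ T (q + x - z) →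
      c ∉ T (q + x - z) ∨ d ∉ T (q + x - z) := by
    intro x C hcon
    by_contra h1
    push Not at h1
    refine hcon ?_
    rintro i (rfl | rfl | hi)
    · exact h1.1
    · exact h1.2
    · rw [mem_singleton_iff] at hi
      subst hi
      exact C.swap.e_mem h
  have uniq : ∀ x x' r, r ∈ ({c, d, f} : Set (Fin 6)) → Cfg T z x q a b c d e f →
      Cfg T z x' q a b c d e f → r ∉ T (q + x - z) → r ∉ T (q + x' - z) → x = x' := by
    intro x x' r hr C C' h1 h2
    have k1 := (node h C).other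
    have k2 := (node h C').other
    have h3 := k1.unique h k2 hr h1 h2
    linear_combination h3
  rcases miss _ C₁ H1 with m1 | m1 <;> rcases miss _ C₂ H2 with m2 | m2 <;>
    rcases miss _ C₃ H3 with m3 | m3
  · exact n12 (uniq _ _ c (by simp) C₁ C₂ m1 m2)
  · exact n12 (uniq _ _ c (by simp) C₁ C₂ m1 m2)
  · exact n13 (uniq _ _ c (by simp) C₁ C₃ m1 m3)
  · exact n23 (uniq _ _ d (by simp) C₂ C₃ m2 m3)
  · exact n23 (uniq _ _ c (by simp) C₂ C₃ m2 m3)
  · exact n13 (uniq _ _ d (by simp) C₁ C₃ m1 m3)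
  · exact n12 (uniq _ _ d (by simp) C₁ C₂ m1 m2)
  · exact n12 (uniq _ _ d (by simp) C₁ C₂ m1 m2)

/-- **RULE 2**, as a bound for the number of points, no bound for the orders -/
theorem rule2_any_ncard (h : Irr U T) (hz : DPt T z a b c d)
    (nd : [a, b, c, d, e, f].Nodup) (hq : dist q z = 1) (hTq : T q = {c, d, f}) :
    {x : ℂ | dist x z = 1 ∧ T x = {a, b, e}}.Finite ∧
      {x : ℂ | dist x z = 1 ∧ T x = {a, b, e}}.ncard ≤ 2 := by
  have key : ∀ x₁ x₂ x₃, x₁ ∈ {x : ℂ | dist x z = 1 ∧ T x = {a, b, e}} →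
      x₂ ∈ {x : ℂ | dist x z = 1 ∧ T x = {a, b, e}} →
      x₃ ∈ {x : ℂ | dist x z = 1 ∧ T x = {a, b, e}} → x₁ = x₂ ∨ x₁ = x₃ ∨ x₂ = x₃ := by
    intro x₁ x₂ x₃ h1 h2 h3
    by_contra hcon
    push Not at hcon
    exact rule2_any h hz nd hq hTq h1.1 h1.2 h2.1 h2.2 h3.1 h3.2 hcon.1 hcon.2.1 hcon.2.2
  obtain ⟨S, hS⟩ : ∃ S, S = {x : ℂ | dist x z = 1 ∧ T x = {a, b, e}} := ⟨_, rfl⟩
  rw [← hS] at key ⊢
  have hsub : ∃ x y, S ⊆ {x, y} := by
    rcases S.eq_empty_or_nonempty with h1 | ⟨x, hx⟩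
    · exact ⟨0, 0, by rw [h1]; exact Set.empty_subset _⟩
    by_cases h2 : ∃ y ∈ S, y ≠ x
    · obtain ⟨y, hy, hyx⟩ := h2
      refine ⟨x, y, fun w hw => ?_⟩
      rcases key x y w hx hy hw with h3 | h3 | h3
      · exact absurd h3.symm hyx
      · exact Or.inl h3.symm
      · exact Or.inr h3.symm
    · push Not at h2
      exact ⟨x, x, fun w hw => Or.inl (h2 w hw)⟩
  obtain ⟨x, y, hxy⟩ := hsub
  have hfin : S.Finite := (Set.toFinite {x, y}).subset hxy
  refine ⟨hfin, (Set.ncard_le_ncard hxy (Set.toFinite _)).trans ?_⟩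
  have := Set.ncard_insert_le x ({y} : Set ℂ)
  rw [Set.ncard_singleton] at this
  exact this

end Vale.Agent.P032.R2.H231
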